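import Mathlib

/-! # P038: second neighbourhoods of vertices of minimum outdegree -/

namespace Vale.Agent.Results.P038.LocallyAcyclic

open Finset
open scoped Classical

/-- A finite oriented graph: no loops and no pair of opposite arcs. -/
structure Oriented (V : Type) where
  /-- `arc u v` means `u → v` -/
  arc : V → V → Prop
  asymm : ∀ u v, arc u v → ¬ arc v u

variable {V : Type} [Fintype V]

/-- first out-neighbourhood -/
noncomputable def N1 (D : Oriented V) (v : V) : Finset V := univ.filter fun u => D.arc v u

/-- second out-neighbourhood: vertices at directed distance exactly two -/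
noncomputable def N2 (D : Oriented V) (v : V) : Finset V :=
  univ.filter fun w => w ≠ v ∧ ¬ D.arc v w ∧ ∃ u, D.arc v u ∧ D.arc u w

/-- `v` has minimum outdegree -/
def MinOut (D : Oriented V) (v : V) : Prop := ∀ u, (N1 D v).card ≤ (N1 D u).card

/-- arcs inside the out-neighbourhood of `v` -/
def inside (D : Oriented V) (v a b : V) : Prop := D.arc v a ∧ D.arc v b ∧ D.arc a b

/-- the out-neighbourhood of `v` contains a directed cycle (a closed directed walk) -/
def DominatesCycle (D : Oriented V) (v : V) : Prop :=
  ∃ u, Relation.TransGen (inside D v) u u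

/-- (1) If `v` has minimum outdegree, then `|N2(v)| ≥ |N1(v)| - |N1(v) ∩ N1(w)|` for every
out-neighbour `w` of `v`. (2) If `v` has minimum outdegree and its out-neighbourhood contains no
directed cycle, then `|N1(v)| ≤ |N2(v)|`. (3) Seymour's conjecture holds for every nonempty finite
oriented graph in which no vertex of minimum outdegree dominates a directed cycle; in particular in
a counterexample every vertex of minimum outdegree dominates a directed cycle. -/
theorem result (V : Type) [Fintype V] [Nonempty V] (D : Oriented V) :
    (∀ v, MinOut D v → ∀ w, D.arc v w →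
      (N1 D v).card ≤ (N2 D v).card + (N1 D v ∩ N1 D w).card) ∧
    (∀ v, MinOut D v → ¬ DominatesCycle D v → (N1 D v).card ≤ (N2 D v).card) ∧
    ((∃ v, MinOut D v ∧ ¬ DominatesCycle D v) → ∃ v, (N1 D v).card ≤ (N2 D v).card) := by
  have h1 : ∀ v, MinOut D v → ∀ w, D.arc v w →
      (N1 D v).card ≤ (N2 D v).card + (N1 D v ∩ N1 D w).card := by
    intro v hv w hw
    have hsub : N1 D w \ N1 D v ⊆ N2 D v := by
      intro x hx
      rw [mem_sdiff] at hx
      have hx1 : D.arc w x := (mem_filter.1 hx.1).2
      have hx2 : ¬ D.arc v x := fun h => hx.2 (mem_filter.2 ⟨mem_univ _, h⟩)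
      refine mem_filter.2 ⟨mem_univ _, ?_, hx2, w, hw, hx1⟩
      rintro rfl
      exact D.asymm _ _ hw hx1
    have h2 := card_le_card hsub
    have h3 := card_sdiff_add_card_inter (N1 D w) (N1 D v)
    have h4 := hv w
    rw [inter_comm] at h3
    omega
  have h2 : ∀ v, MinOut D v → ¬ DominatesCycle D v → (N1 D v).card ≤ (N2 D v).card := by
    intro v hv hc
    by_cases hne : ∃ u, D.arc v u
    · -- a sink of the out-neighbourhood
      have hirr : Std.Irrefl (Relation.TransGen (inside D v)) :=
        ⟨fun u hu => hc ⟨u, hu⟩⟩
      have hirr' : Std.Irrefl (flip (Relation.TransGen (inside D v))) :=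
        ⟨fun u hu => hc ⟨u, hu⟩⟩
      have htr : IsTrans V (flip (Relation.TransGen (inside D v))) :=
        ⟨fun a b c hab hbc => Relation.TransGen.trans hbc hab⟩
      have hwf : WellFounded (flip (Relation.TransGen (inside D v))) :=
        Finite.wellFounded_of_trans_of_irrefl _
      obtain ⟨w, hw, hmin⟩ := hwf.has_min {u | D.arc v u} hne
      have hsink : N1 D v ∩ N1 D w = ∅ := by
        rw [eq_empty_iff_forall_notMem]
        intro x hx
        rw [mem_inter] at hx
        have hx1 : D.arc v x := (mem_filter.1 hx.1).2
        have hx2 : D.arc w x := (mem_filter.1 hx.2).2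
        exact hmin x hx1 (Relation.TransGen.single ⟨hw, hx1, hx2⟩)
      have := h1 v hv w hw
      rw [hsink, card_empty] at this
      omega
    · have : N1 D v = ∅ := by
        rw [eq_empty_iff_forall_notMem]
        intro x hx
        exact hne ⟨x, (mem_filter.1 hx).2⟩
      rw [this]
      simp
  exact ⟨h1, h2, fun ⟨v, hv, hc⟩ => ⟨v, h2 v hv hc⟩⟩

end Vale.Agent.Results.P038.LocallyAcyclic
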